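import Vale.Agent.P062.EAll

namespace Vale.Agent.Results.P062.A_snaky21

open Vale.Agent.P062

theorem result : ∃ σ : List Cell → Cell,
    (∀ (b : ℕ → Cell) (n : ℕ), MakerLegal σ b n) ∧
    (∀ (b : ℕ → Cell), ∀ n < 21, 0 ≤ (makerMove σ b n).1 ∧ (makerMove σ b n).1 < 17 ∧
      0 ≤ (makerMove σ b n).2 ∧ (makerMove σ b n).2 < 17) ∧
    ∀ b : ℕ → Cell, (∀ k < 20, BreakerLegal σ b k) → MakerOwnsCopy σ b 21 :=
  Bd.final 17 20 Bd.Ewin (by norm_num)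

end Vale.Agent.Results.P062.A_snaky21
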