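import Vale.Agent.P062.AAll

namespace Vale.Agent.Results.P062.B_snaky33

open Vale.Agent.P062

theorem result : ∃ σ : List Cell → Cell,
    (∀ (b : ℕ → Cell) (n : ℕ), MakerLegal σ b n) ∧
    ∀ b : ℕ → Cell, (∀ k < 32, BreakerLegal σ b k) → MakerOwnsCopy σ b 33 :=
  strategy_of_win 32 Awin

end Vale.Agent.Results.P062.B_snaky33
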